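import Vale.Agent.P200.Main

namespace Vale.Agent.Results.P200.Quadrics

open MvPolynomial

universe u

theorem result (K : Type u) [Field K] (n : ℕ) (f : Fin n → MvPolynomial (Fin n) K)
    (hf : ∀ i, (f i).IsHomogeneous 2)
    (hreg : ∀ (i : Fin n) (g : MvPolynomial (Fin n) K),
      f i * g ∈ Ideal.span (f '' {j | j < i}) → g ∈ Ideal.span (f '' {j | j < i}))
    (I : Ideal (MvPolynomial (Fin n) K))
    (_hI : ∀ g ∈ I, ∀ d : ℕ, homogeneousComponent d g ∈ I)
    (hfI : ∀ i, f i ∈ I) :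
    ∃ J : Ideal (MvPolynomial (Fin n) K),
      (∃ E : Set (Fin n →₀ ℕ),
        J = Ideal.span ((fun α => (monomial α 1 : MvPolynomial (Fin n) K)) '' E)) ∧
      (∀ i, (X i : MvPolynomial (Fin n) K) ^ 2 ∈ J) ∧
      ∀ d : ℕ,
        Module.finrank K
          (I.restrictScalars K ⊓ homogeneousSubmodule (Fin n) K d : Submodule K _) =
        Module.finrank K
          (J.restrictScalars K ⊓ homogeneousSubmodule (Fin n) K d : Submodule K _) := by
  obtain ⟨Es, h1, h2⟩ := Vale.Agent.P200.egh_quadrics f hf hreg I hfI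
  refine ⟨_, ⟨Es, rfl⟩, fun i => ?_, h2⟩
  rw [X_pow_eq_monomial]
  exact Ideal.subset_span ⟨_, h1 i, rfl⟩

end Vale.Agent.Results.P200.Quadrics
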